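import Vale.Agent.P266.SoftD

namespace Vale.Agent.P266

open Polynomial

theorem sdiff_pow {R : Type*} [CommRing R] [Algebra ℂ R] (D : Derivation ℂ R R) {I P : Ideal R}
    (hI : ∀ x ∈ I, D x ∈ I) (hPp : P.IsPrime) (hIP : I ≤ P) {x : R} (hDx : D x ∉ P) :
    ∀ (n : ℕ) (s : R), s ∉ P → s * x ^ n ∉ I := by
  intro n
  induction n with
  | zero => intro s hs h; exact hs (hIP (by simpa using h))
  | succ k ih =>
    intro s hs h
    have h1 : s * D (s * x ^ (k + 1)) - D s * (s * x ^ (k + 1)) ∈ I :=
      I.sub_mem (I.mul_mem_left _ (hI _ h)) (I.mul_mem_left _ h)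
    have h2 : s * D (s * x ^ (k + 1)) - D s * (s * x ^ (k + 1)) =
        (((k + 1 : ℕ) : R) * (s * s * D x)) * x ^ k := by
      rw [Derivation.leibniz, Derivation.leibniz_pow]
      simp only [smul_eq_mul, nsmul_eq_mul, Nat.add_sub_cancel]
      ring
    rw [h2] at h1
    refine ih _ ?_ h1
    intro h3
    have hu : IsUnit (((k + 1 : ℕ) : R)) := by
      have : ((k + 1 : ℕ) : R) = algebraMap ℂ R ((k + 1 : ℕ) : ℂ) := by simp
      rw [this]
      exact (IsUnit.mk0 _ (Nat.cast_ne_zero.2 (Nat.succ_ne_zero k))).map _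
    rcases hPp.mem_or_mem h3 with h4 | h4
    · exact hPp.ne_top (P.eq_top_of_isUnit_mem h4 hu)
    · rcases hPp.mem_or_mem h4 with h5 | h5
      · exact hs ((hPp.mem_or_mem h5).elim id id)
      · exact hDx h5

theorem diff_min {R : Type*} [CommRing R] [Algebra ℂ R] (D : Derivation ℂ R R) {I P : Ideal R}
    (hI : ∀ x ∈ I, D x ∈ I) (hP : P ∈ I.minimalPrimes) : ∀ x ∈ P, D x ∈ P := by
  intro x hx
  have hPp : P.IsPrime := hP.1.1
  have hIP : I ≤ P := hP.1.2
  by_contra hDx
  have hrad := IsLocalization.AtPrime.radical_map_of_mem_minimalPrimes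
    (A := Localization.AtPrime P) P I hP
  have hm : algebraMap R (Localization.AtPrime P) x ∈
      (I.map (algebraMap R (Localization.AtPrime P))).radical := by
    rw [hrad]; exact Ideal.mem_map_of_mem _ hx
  obtain ⟨n, hn⟩ := hm
  rw [← map_pow, IsLocalization.algebraMap_mem_map_algebraMap_iff P.primeCompl] at hn
  obtain ⟨s, hs, hsx⟩ := hn
  exact sdiff_pow D hI hPp hIP hDx n s hs hsx

theorem sdiff_eval {R : Type*} [CommRing R] [Algebra ℂ R] (D : Derivation ℂ R R) (z : R)
    (p : R[X]) (hp : ∀ i, D (p.coeff i) = 0) : D (p.eval z) = p.derivative.eval z * D z := by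
  rw [Polynomial.derivative_eval, Polynomial.eval_eq_sum, Polynomial.sum_def, Polynomial.sum_def,
    map_sum, Finset.sum_mul]
  refine Finset.sum_congr rfl fun i _ => ?_
  rw [Derivation.leibniz, Derivation.leibniz_pow, hp]
  simp only [smul_eq_mul, nsmul_eq_mul]
  ring

theorem sdiff_root {R : Type*} [CommRing R] [IsDomain R] [Algebra ℂ R] (D : Derivation ℂ R R)
    (z : R) : ∀ (n : ℕ) (p : R[X]), p.natDegree = n → p ≠ 0 → (∀ i, D (p.coeff i) = 0) →
      p.eval z = 0 → D z = 0 := by
  haveI : CharZero R := charZero_of_injective_algebraMap (algebraMap ℂ R).injective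
  intro n
  induction n using Nat.strong_induction_on with
  | _ n ih =>
    intro p hn hp0 hp hz
    have h1 := sdiff_eval D z p hp
    rw [hz, map_zero] at h1
    rcases mul_eq_zero.1 h1.symm with h2 | h2
    · by_cases hd : p.natDegree = 0
      · exfalso
        rw [Polynomial.eq_C_of_natDegree_eq_zero hd] at hz hp0
        rw [Polynomial.eval_C] at hz
        exact hp0 (by rw [hz, map_zero])
      · refine ih _ (hn ▸ Polynomial.natDegree_derivative_lt hd) p.derivative rfl ?_ ?_ h2
        · intro h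
          exact hd (Polynomial.natDegree_eq_zero_of_derivative_eq_zero h)
        · intro i
          rw [Polynomial.coeff_derivative, Derivation.leibniz, hp]
          have : D ((i : R) + 1) = 0 := by
            rw [map_add, Derivation.map_natCast, Derivation.map_one_eq_zero, add_zero]
          rw [this]; simp
    · exact h2

theorem der_zero {B R : Type*} [CommRing B] [Algebra ℂ B] [CommRing R] [IsDomain R] [Algebra ℂ R]
    (φ : B →ₐ[ℂ] R) {a b : B} (h2 : ∀ x : B, IsIntegral (Algebra.adjoin ℂ {a, b}) x)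
    (D : Derivation ℂ R R) (ha : D (φ a) = 0) (hb : D (φ b) = 0) (x : B) : D (φ x) = 0 := by
  have hS : ∀ y ∈ Algebra.adjoin ℂ ({a, b} : Set B), D (φ y) = 0 := by
    intro y hy
    induction hy using Algebra.adjoin_induction with
    | mem y hy =>
      rcases hy with rfl | hy
      · exact ha
      · rw [Set.mem_singleton_iff.1 hy]; exact hb
    | algebraMap r => rw [AlgHom.commutes, Derivation.map_algebraMap]
    | add y z _ _ h1 h3 => rw [map_add, map_add, h1, h3, add_zero]
    | mul y z _ _ h1 h3 => rw [map_mul, Derivation.leibniz, h1, h3]; simp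
  obtain ⟨p, hm, hp⟩ := h2 x
  set ψ : Algebra.adjoin ℂ ({a, b} : Set B) →+* R :=
    φ.toRingHom.comp (algebraMap (Algebra.adjoin ℂ ({a, b} : Set B)) B) with hψ
  refine sdiff_root D (φ x) _ (p.map ψ) rfl (hm.map ψ).ne_zero ?_ ?_
  · intro i
    rw [Polynomial.coeff_map]
    exact hS _ (p.coeff i).2
  · rw [Polynomial.eval_map, hψ]
    have := Polynomial.hom_eval₂ p (algebraMap (Algebra.adjoin ℂ ({a, b} : Set B)) B)
      φ.toRingHom x
    rw [hp, map_zero] at this
    exact this.symm

end Vale.Agent.P266
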