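import Vale.Agent.P266.SoftD

namespace Vale.Agent.P266

variable {B : Type*} [CommRing B] [IsDomain B] [Algebra ℂ B]

theorem der_ext (D : Derivation ℂ B B) : ∃ D' : Derivation ℂ (FractionRing B) (FractionRing B),
    ∀ x : B, D' (algebraMap B _ x) = algebraMap B _ (D x) := by
  set K := FractionRing B
  let φ : B →+* TrivSqZeroExt K K :=
    { toFun := fun x => TrivSqZeroExt.inl (algebraMap B K x) +
        TrivSqZeroExt.inr (algebraMap B K (D x))
      map_one' := by ext <;> simp
      map_mul' := fun x y => by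
        ext
        · simp; ring
        · simp; ring
      map_zero' := by ext <;> simp
      map_add' := fun x y => by ext <;> (simp; ring) }
  have hφ1 : ∀ x, (φ x).fst = algebraMap B K x := fun x => by simp [φ]
  have hφ2 : ∀ x, (φ x).snd = algebraMap B K (D x) := fun x => by simp [φ]
  have hu : ∀ y : nonZeroDivisors B, IsUnit (φ y) := fun y => by
    rw [TrivSqZeroExt.isUnit_iff_isUnit_fst, hφ1]
    exact IsLocalization.map_units K y
  let ψ : K →+* TrivSqZeroExt K K := IsLocalization.lift hu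
  have hψ : ∀ x : B, ψ (algebraMap B K x) = φ x := fun x => IsLocalization.lift_eq hu x
  have hψ1 : ∀ z, (ψ z).fst = z := by
    have : ((TrivSqZeroExt.fstHom K K K).toRingHom.comp ψ) = RingHom.id K := by
      apply IsLocalization.ringHom_ext (nonZeroDivisors B)
      ext x
      simp [hψ, hφ1]
    intro z
    exact congrArg (fun f : K →+* K => f z) this
  have hmul : ∀ z w, (ψ (z * w)).snd = z * (ψ w).snd + w * (ψ z).snd := by
    intro z w
    rw [map_mul, TrivSqZeroExt.snd_mul, hψ1, hψ1]
    simp [mul_comm]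
  have hc : ∀ c : ℂ, (ψ (algebraMap ℂ K c)).snd = 0 := by
    intro c
    rw [IsScalarTower.algebraMap_apply ℂ B K, hψ, hφ2]
    simp
  let dl : K →ₗ[ℂ] K :=
    { toFun := fun z => (ψ z).snd
      map_add' := fun z w => by simp
      map_smul' := fun c z => by
        rw [Algebra.smul_def, hmul, hc, RingHom.id_apply, Algebra.smul_def]; simp }
  refine ⟨Derivation.mk' dl (fun z w => hmul z w), fun x => ?_⟩
  show (ψ (algebraMap B K x)).snd = _
  rw [hψ, hφ2]

theorem der_tr (u v : B) (D : Derivation ℂ B B) : ∃ D' : Derivation ℂ (Tr u v) (Tr u v),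
    ∀ x : B, D' (algebraMap B _ x) = algebraMap B _ (D x) := by
  obtain ⟨E, hE⟩ := der_ext D
  have key : ∀ (w x : B) (n : ℕ) (z : FractionRing B), algebraMap B _ w ^ n * z = algebraMap B _ x →
      algebraMap B _ w ^ (n + 1) * E z = algebraMap B _ (w * D x - n * x * D w) := by
    intro w x n z h
    have k := congrArg E h
    rw [Derivation.leibniz, Derivation.leibniz_pow, hE, hE] at k
    simp only [smul_eq_mul, nsmul_eq_mul] at k
    simp only [map_sub, map_mul, map_natCast]
    rw [← k, ← h]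
    rcases n with _ | n
    · simp
    · simp only [Nat.add_sub_cancel]; ring
  have hmem : ∀ z ∈ Tr u v, E z ∈ Tr u v := by
    intro z hz
    obtain ⟨n, x, y, h1, h2⟩ := mem_Tr.mp hz
    exact mem_Tr.mpr ⟨n + 1, _, _, key u x n z h1, key v y n z h2⟩
  let dl : Tr u v →ₗ[ℂ] Tr u v :=
    { toFun := fun z => ⟨E z, hmem z z.2⟩
      map_add' := fun z w => Subtype.ext (by simp)
      map_smul' := fun c z => Subtype.ext (by
        show E ((c • z : Tr u v) : FractionRing B) = ((c • (⟨E z, hmem z z.2⟩ : Tr u v) : Tr u v) : FractionRing B)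
        rw [Subalgebra.coe_smul, Subalgebra.coe_smul, Derivation.map_smul]) }
  refine ⟨Derivation.mk' dl (fun z w => Subtype.ext ?_), fun x => Subtype.ext ?_⟩
  · show E ((z : FractionRing B) * w) = (z : FractionRing B) * E w + (w : FractionRing B) * E z
    rw [Derivation.leibniz]; rfl
  · exact hE x

theorem tr_H (u v : B) (E1 E2 : Derivation ℂ (Tr u v) (Tr u v))
    (hu : algebraMap B (Tr u v) u ∈ (Ideal.span {z | ∃ x y, z = Jc E1 E2 x y}).radical)
    (hv : algebraMap B (Tr u v) v ∈ (Ideal.span {z | ∃ x y, z = Jc E1 E2 x y}).radical)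
    (s d : Tr u v) (hd : d ≠ 0) (h : ∀ x y, d ∣ s * Jc E1 E2 x y) : d ∣ s := by
  have hI : ∀ w ∈ Ideal.span {z | ∃ x y, z = Jc E1 E2 x y}, d ∣ s * w := by
    intro w hw
    induction hw using Submodule.span_induction with
    | mem w hw => obtain ⟨x, y, rfl⟩ := hw; exact h x y
    | zero => simp
    | add a b _ _ ha hb => rw [mul_add]; exact dvd_add ha hb
    | smul a b _ hb => rw [smul_eq_mul, mul_left_comm]; exact Dvd.dvd.mul_left hb a
  obtain ⟨N, hN⟩ := hu
  obtain ⟨M, hM⟩ := hv
  obtain ⟨t1, ht1⟩ := hI _ hN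
  obtain ⟨t2, ht2⟩ := hI _ hM
  have hd0 : (d : FractionRing B) ≠ 0 := fun h0 => hd (Subtype.ext h0)
  have e1 : (s : FractionRing B) * algebraMap B _ u ^ N = d * t1 := congrArg Subtype.val ht1
  have e2 : (s : FractionRing B) * algebraMap B _ v ^ M = d * t2 := congrArg Subtype.val ht2
  obtain ⟨n1, x1, y1, a1, -⟩ := mem_Tr.mp t1.2
  obtain ⟨n2, x2, y2, -, b2⟩ := mem_Tr.mp t2.2
  have hz : (s : FractionRing B) / d ∈ Tr u v := by
    refine mem_Tr.mpr ⟨n1 + N + (n2 + M), u ^ (n2 + M) * x1, v ^ (n1 + N) * y2, ?_, ?_⟩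
    · rw [map_mul, map_pow, ← a1]
      field_simp
      linear_combination (algebraMap B (FractionRing B) u) ^ (n1 + (n2 + M)) * e1
    · rw [map_mul, map_pow, ← b2]
      field_simp
      linear_combination (algebraMap B (FractionRing B) v) ^ (n1 + N + n2) * e2
  refine ⟨⟨_, hz⟩, Subtype.ext ?_⟩
  show (s : FractionRing B) = d * (s / d)
  field_simp

end Vale.Agent.P266
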