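import Vale.Agent.P266.SoftD

namespace Vale.Agent.P266

variable {B : Type*} [CommRing B] [IsDomain B] [Algebra ℂ B]

theorem tr_fin [Algebra.FiniteType ℂ B] (R : Subalgebra ℂ B) (h2 : ∀ x : B, IsIntegral R x)
    (a b : B) (ha0 : a ≠ 0) (ha : a ∈ R) (hb : b ∈ R)
    (hab : ∀ (n : ℕ) (u v : B), u ∈ R → v ∈ R → a ^ n * v = b ^ n * u → ∃ t ∈ R, u = a ^ n * t) :
    Module.Finite B (Tr a b) := by
  classical
  have : Algebra.FiniteType R B := Algebra.FiniteType.of_restrictScalars_finiteType ℂ R B
  have : Algebra.IsIntegral R B := ⟨h2⟩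
  have : Module.Finite R B := Algebra.IsIntegral.finite
  have : IsNoetherianRing B := Algebra.FiniteType.isNoetherianRing ℂ B
  obtain ⟨k, w, hw⟩ := Module.Finite.exists_fin (R := R) (M := B)
  obtain ⟨s, hs, hs'⟩ := exists_maximal_linearIndepOn R w
  have hc : ∀ i, ∃ c : R, c ≠ 0 ∧ c • w i ∈ Submodule.span R (w '' s) := by
    intro i
    by_cases hi : i ∈ s
    · exact ⟨1, one_ne_zero, by
        rw [one_smul]; exact Submodule.subset_span ⟨i, hi, rfl⟩⟩
    · exact hs' i hi
  choose c hc0 hc using hc
  set δ : R := ∏ i, c i with hδ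
  have hδ0 : δ ≠ 0 := Finset.prod_ne_zero_iff.2 fun i _ => hc0 i
  have hall : ∀ x : B, δ • x ∈ Submodule.span R (w '' s) := by
    intro x
    have hx : x ∈ Submodule.span R (Set.range w) := by rw [hw]; trivial
    induction hx using Submodule.span_induction with
    | mem x hx =>
      obtain ⟨i, rfl⟩ := hx
      rw [hδ, ← Finset.prod_erase_mul _ _ (Finset.mem_univ i), mul_smul]
      exact Submodule.smul_mem _ _ (hc i)
    | zero => simp
    | add x y _ _ hx hy => rw [smul_add]; exact add_mem hx hy
    | smul r x _ hx => rw [smul_comm]; exact Submodule.smul_mem _ _ hx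
  have hli : LinearIndependent R (fun i : s => w i) := hs
  have hrange : w '' s = Set.range (fun i : s => w i) := Set.image_eq_range w s
  have hinj : Function.Injective (algebraMap B (FractionRing B)) :=
    IsFractionRing.injective B _
  have hδB : (δ : B) ≠ 0 := fun h => hδ0 (Subtype.ext h)
  have hδK : algebraMap B (FractionRing B) δ ≠ 0 := fun h => hδB (hinj (by simpa using h))
  have haK : algebraMap B (FractionRing B) a ≠ 0 := fun h => ha0 (hinj (by simpa using h))
  have hle : (Tr a b).toSubmodule ≤
      Submodule.span B {(algebraMap B (FractionRing B) δ)⁻¹} := by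
    rintro z ⟨n, x, y, hx, hy⟩
    have hxy : a ^ n * y = b ^ n * x := by
      apply hinj
      simp only [map_mul, map_pow, ← hx, ← hy]; ring
    obtain ⟨u, hu⟩ := (Submodule.mem_span_range_iff_exists_fun R).1 (hrange ▸ hall x)
    obtain ⟨v, hv⟩ := (Submodule.mem_span_range_iff_exists_fun R).1 (hrange ▸ hall y)
    have hco : ∀ i, (⟨a, ha⟩ : R) ^ n * v i - (⟨b, hb⟩ : R) ^ n * u i = 0 := by
      apply Fintype.linearIndependent_iff.1 hli
      simp only [sub_smul, mul_smul, Finset.sum_sub_distrib, ← Finset.smul_sum, hu, hv]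
      simp only [Subalgebra.smul_def, smul_eq_mul, SubmonoidClass.coe_pow]
      linear_combination (δ : B) * hxy
    have ht : ∀ i, ∃ t ∈ R, (u i : B) = a ^ n * t := by
      intro i
      apply hab n (u i) (v i) (u i).2 (v i).2
      have := congrArg Subtype.val (sub_eq_zero.1 (hco i))
      simpa using this
    choose t _ ht using ht
    have h3 : (δ : B) * x = a ^ n * ∑ i, t i * w i := by
      have : (δ : B) * x = δ • x := rfl
      rw [this, ← hu, Finset.mul_sum]
      refine Finset.sum_congr rfl fun i _ => ?_
      rw [Subalgebra.smul_def, smul_eq_mul, ht i, mul_assoc]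
    refine Submodule.mem_span_singleton.2 ⟨∑ i, t i * w i, ?_⟩
    have h4 := congrArg (algebraMap B (FractionRing B)) h3
    rw [map_mul, map_mul, map_pow, ← hx] at h4
    have h5 : algebraMap B (FractionRing B) δ * z =
        algebraMap B (FractionRing B) (∑ i, t i * w i) := by
      apply mul_left_cancel₀ (pow_ne_zero n haK)
      rw [← h4]; ring
    rw [Algebra.smul_def, ← h5]
    field_simp
  have hfg : (Tr a b).toSubmodule.FG :=
    Submodule.FG.of_le (Submodule.fg_span_singleton _) hle
  exact Module.Finite.iff_fg.2 hfg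

theorem tr_ft [Algebra.FiniteType ℂ B] (a b g : B) (hg : g ≠ 0) (h : Module.Finite B (Tr a b)) :
    Algebra.FiniteType ℂ (Tr (g * a) (g * b)) := by
  classical
  have hinj : Function.Injective (algebraMap B (FractionRing B)) :=
    IsFractionRing.injective B _
  have hgK : algebraMap B (FractionRing B) g ≠ 0 := fun h => hg (hinj (by simpa using h))
  have hfg : (Tr a b).toSubmodule.FG := Module.Finite.iff_fg.1 h
  obtain ⟨S, hS⟩ := hfg
  have heq : Algebra.adjoin B ((insert (algebraMap B (FractionRing B) g)⁻¹ S : Finset _) :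
      Set (FractionRing B)) = Tr (g * a) (g * b) := by
    apply le_antisymm
    · rw [Algebra.adjoin_le_iff]
      intro z hz
      rw [Finset.coe_insert] at hz
      rcases hz with rfl | hz
      · refine ⟨1, a, b, ?_, ?_⟩ <;> rw [map_mul] <;> field_simp
      · have : z ∈ (Tr a b).toSubmodule := hS ▸ Submodule.subset_span hz
        obtain ⟨n, x, y, hx, hy⟩ := this
        refine ⟨n, g ^ n * x, g ^ n * y, ?_, ?_⟩
        · simp only [map_mul, map_pow, ← hx]; ring
        · simp only [map_mul, map_pow, ← hy]; ring
    · rintro z ⟨n, x, y, hx, hy⟩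
      have h1 : algebraMap B (FractionRing B) g ^ n * z ∈ (Tr a b).toSubmodule := by
        refine ⟨n, x, y, ?_, ?_⟩
        · rw [← hx, map_mul]; ring
        · rw [← hy, map_mul]; ring
      rw [← hS] at h1
      have h2 : algebraMap B (FractionRing B) g ^ n * z ∈ Algebra.adjoin B
          ((insert (algebraMap B (FractionRing B) g)⁻¹ S : Finset _) : Set (FractionRing B)) := by
        refine Algebra.span_le_adjoin B _ (Submodule.span_mono ?_ h1)
        rw [Finset.coe_insert]; exact Set.subset_insert _ _
      have h3 : (algebraMap B (FractionRing B) g)⁻¹ ∈ Algebra.adjoin B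
          ((insert (algebraMap B (FractionRing B) g)⁻¹ S : Finset _) : Set (FractionRing B)) :=
        Algebra.subset_adjoin (by simp)
      have h4 := mul_mem (pow_mem h3 n) h2
      have h5 : (algebraMap B (FractionRing B) g)⁻¹ ^ n * (algebraMap B (FractionRing B) g ^ n * z)
          = z := by rw [← mul_assoc, ← mul_pow, inv_mul_cancel₀ hgK, one_pow, one_mul]
      rwa [h5] at h4
  have hft : Algebra.FiniteType B (Tr (g * a) (g * b)) :=
    (Subalgebra.fg_iff_finiteType _).1 ⟨_, heq⟩
  exact Algebra.FiniteType.trans (S := B) inferInstance hft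

end Vale.Agent.P266
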