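import Vale.Agent.P266.SoftD

namespace Vale.Agent.P266

variable {A : Type*} [CommRing A] [IsDomain A] [Algebra ℂ A]

theorem jac_ne (D1 D2 : Derivation ℂ A A) (a b : A)
    (hz : ∀ D : Derivation ℂ A A, D a = 0 → D b = 0 → D = 0) (hJ : ∃ x y, Jc D1 D2 x y ≠ 0) :
    Jc D1 D2 a b ≠ 0 := by
  obtain ⟨x, y, hxy⟩ := hJ
  intro h
  unfold Jc at h hxy
  have key : ∀ c : A, D2 c * D1 a - D1 c * D2 a = 0 → D2 c * D1 b - D1 c * D2 b = 0 →
      D1 c = 0 := by
    intro c h1 h2
    have h3 := hz (D2 c • D1 - D1 c • D2) (by simpa using h1) (by simpa using h2)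
    have h4 : ∀ z, D2 c * D1 z - D1 c * D2 z = 0 := fun z => by
      simpa using congrArg (fun E : Derivation ℂ A A => E z) h3
    refine (mul_eq_zero.1 ?_).resolve_right hxy
    linear_combination D1 y * h4 x - D1 x * h4 y
  have h5 := hz D1 (key a (by ring) (by linear_combination -h)) (key b (by linear_combination h)
    (by ring))
  exact hxy (by simp [h5])

theorem der_free (D1 D2 : Derivation ℂ A A) (a b : A)
    (hz : ∀ D : Derivation ℂ A A, D a = 0 → D b = 0 → D = 0) (hJ : ∃ x y, Jc D1 D2 x y ≠ 0)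
    (hH : ∀ s d : A, d ≠ 0 → (∀ x y, d ∣ s * Jc D1 D2 x y) → d ∣ s) :
    Module.Free A (Derivation ℂ A A) := by
  have h0 := jac_ne D1 D2 a b hz hJ
  obtain ⟨x0, y0, hxy⟩ := hJ
  have hli : LinearIndependent A ![D1, D2] := by
    rw [LinearIndependent.pair_iff]
    intro s t h
    have h4 : ∀ z, s * D1 z + t * D2 z = 0 := fun z => by
      simpa using congrArg (fun E : Derivation ℂ A A => E z) h
    constructor
    · refine (mul_eq_zero.1 ?_).resolve_right hxy
      unfold Jc
      linear_combination D2 y0 * h4 x0 - D2 x0 * h4 y0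
    · refine (mul_eq_zero.1 ?_).resolve_right hxy
      unfold Jc
      linear_combination D1 x0 * h4 y0 - D1 y0 * h4 x0
  have hsp : ⊤ ≤ Submodule.span A (Set.range ![D1, D2]) := by
    intro D _
    have h3 := hz (Jc D1 D2 a b • D - (D a * D2 b - D2 a * D b) • D1 -
      (D1 a * D b - D a * D1 b) • D2) (by simp [Jc]; ring) (by simp [Jc]; ring)
    have h4 : ∀ z, Jc D1 D2 a b * D z - (D a * D2 b - D2 a * D b) * D1 z -
        (D1 a * D b - D a * D1 b) * D2 z = 0 := fun z => by
      simpa using congrArg (fun E : Derivation ℂ A A => E z) h3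
    obtain ⟨α, hα⟩ := hH (D a * D2 b - D2 a * D b) _ h0 fun x y =>
      ⟨D x * D2 y - D2 x * D y, by
        rw [Jc.eq_1 D1 D2 x y]
        linear_combination D2 x * h4 y - D2 y * h4 x⟩
    obtain ⟨β, hβ⟩ := hH (D1 a * D b - D a * D1 b) _ h0 fun x y =>
      ⟨D1 x * D y - D x * D1 y, by
        rw [Jc.eq_1 D1 D2 x y]
        linear_combination D1 y * h4 x - D1 x * h4 y⟩
    have h5 : D = α • D1 + β • D2 := by
      ext z
      have h6 := h4 z
      rw [hα, hβ] at h6
      refine mul_left_cancel₀ h0 ?_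
      simp only [Derivation.add_apply, Derivation.smul_apply, smul_eq_mul]
      linear_combination h6
    rw [h5]
    exact add_mem (Submodule.smul_mem _ _ (Submodule.subset_span ⟨0, rfl⟩))
      (Submodule.smul_mem _ _ (Submodule.subset_span ⟨1, rfl⟩))
  exact Module.Free.of_basis (Module.Basis.mk hli hsp)

end Vale.Agent.P266
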