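import Vale.Agent.P266.SoftD

namespace Vale.Agent.P266

variable {B : Type*} [CommRing B] [IsDomain B] [Algebra ℂ B]

open MvPolynomial in
omit [IsDomain B] in
theorem SInd_chain (D : Derivation ℂ B B) (a b : B) (F : MvPolynomial (Fin 2) ℂ) :
    D (aeval ![a, b] F) =
      aeval ![a, b] (pderiv 0 F) * D a + aeval ![a, b] (pderiv 1 F) * D b := by
  induction F using MvPolynomial.induction_on with
  | C c => simp
  | add p q hp hq => simp only [map_add, hp, hq]; ring
  | mul_X p i hp =>
    fin_cases i <;> simp [hp, Derivation.leibniz, pderiv_X] <;> ring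

open MvPolynomial in
theorem SInd_zero (D1 D2 : Derivation ℂ B B) (a b : B) (hJ : Jc D1 D2 a b ≠ 0) (n : ℕ) :
    ∀ F : MvPolynomial (Fin 2) ℂ, (∀ m, coeff m F ≠ 0 → m 0 + m 1 < n) →
      aeval ![a, b] F = 0 → F = 0 := by
  induction n with
  | zero =>
    intro F h _
    ext m
    by_contra hm
    exact absurd (h m hm) (Nat.not_lt_zero _)
  | succ n ih =>
    intro F h h0
    have h1 := SInd_chain D1 a b F
    have h2 := SInd_chain D2 a b F
    rw [h0, map_zero] at h1 h2
    have hk : ∀ i, aeval ![a, b] (pderiv i F) = 0 := by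
      intro i
      refine (mul_eq_zero.1 (?_ : _ * Jc D1 D2 a b = 0)).resolve_right hJ
      fin_cases i
      · change aeval ![a, b] (pderiv 0 F) * _ = 0
        rw [Jc]
        linear_combination D1 b * h2 - D2 b * h1
      · change aeval ![a, b] (pderiv 1 F) * _ = 0
        rw [Jc]
        linear_combination D2 a * h1 - D1 a * h2
    have hz : ∀ i, pderiv i F = 0 := fun i => ih _ (fun m hm => by
      rw [coeff_pderiv] at hm
      have h3 := h _ (left_ne_zero_of_mul hm)
      fin_cases i <;> simp at h3 <;> omega) (hk i)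
    have hc : ∀ (i : Fin 2) (m : Fin 2 →₀ ℕ), m i ≠ 0 → coeff m F = 0 := fun i m hm => by
      have h3 := coeff_pderiv (i := i) F (m - Finsupp.single i 1)
      rw [hz, coeff_zero, tsub_add_cancel_of_le (Finsupp.single_le_iff.2 (by omega))] at h3
      exact (mul_eq_zero.1 h3.symm).resolve_right (Nat.cast_add_one_ne_zero _)
    have hF : F = C (coeff 0 F) := by
      ext m
      rw [coeff_C]
      split_ifs with hm
      · rw [← hm]
      · by_contra hne
        refine hm ?_
        ext i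
        by_contra hi
        exact hne (hc i m fun h => hi h.symm)
    rw [hF, aeval_C] at h0
    rw [hF, (map_eq_zero_iff _ (algebraMap ℂ B).injective).1 h0, map_zero]

theorem jac_indep (D1 D2 : Derivation ℂ B B) (a b : B) (hJ : Jc D1 D2 a b ≠ 0) :
    AlgebraicIndependent ℂ ![a, b] := by
  rw [algebraicIndependent_iff]
  intro F hF
  refine SInd_zero D1 D2 a b hJ (F.totalDegree + 1) F (fun m hm => ?_) hF
  have h := MvPolynomial.le_totalDegree (MvPolynomial.mem_support_iff.2 hm)
  rw [Finsupp.sum_fintype _ _ (fun _ => rfl), Fin.sum_univ_two] at h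
  omega

theorem cop_of_jac (D1 D2 : Derivation ℂ B B) (a b : B) (hJ : Jc D1 D2 a b ≠ 0) (n : ℕ) (u v : B)
    (hu : u ∈ Algebra.adjoin ℂ {a, b}) (hv : v ∈ Algebra.adjoin ℂ {a, b})
    (h : a ^ n * v = b ^ n * u) : ∃ t ∈ Algebra.adjoin ℂ {a, b}, u = a ^ n * t := by
  have hr : ({a, b} : Set B) = Set.range ![a, b] := by
    rw [Matrix.range_cons, Matrix.range_cons, Matrix.range_empty, Set.union_empty]
    rfl
  rw [hr, Algebra.adjoin_range_eq_range_aeval] at hu hv ⊢
  obtain ⟨U, rfl⟩ := hu
  obtain ⟨V, rfl⟩ := hv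
  have hi : Function.Injective (MvPolynomial.aeval (R := ℂ) ![a, b]) := jac_indep D1 D2 a b hJ
  have h1 : (MvPolynomial.X 0 : MvPolynomial (Fin 2) ℂ) ^ n * V = MvPolynomial.X 1 ^ n * U := by
    apply hi
    simpa using h
  have h2 : (MvPolynomial.X 0 : MvPolynomial (Fin 2) ℂ) ^ n ∣ U :=
    MvPolynomial.X_prime.pow_dvd_of_dvd_mul_left n
      (fun hd => absurd (MvPolynomial.X_dvd_X.1 (MvPolynomial.X_prime.dvd_of_dvd_pow hd))
        (by decide)) ⟨V, h1.symm⟩
  obtain ⟨T, rfl⟩ := h2
  exact ⟨MvPolynomial.aeval ![a, b] T, ⟨T, rfl⟩, by simp⟩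

end Vale.Agent.P266
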