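import Vale.Agent.P266.SoftD

namespace Vale.Agent.P266

open scoped Pointwise

theorem sreg_two {A : Type*} [CommRing A] [IsRegularRing A] (m : Ideal A) [m.IsPrime]
    (hdim : m.height ≤ 2) :
    ∃ x1 ∈ m, ∃ x2 ∈ m, ∀ f ∈ m, ∃ s ∉ m, ∃ u1 u2 : A, s * f = u1 * x1 + u2 * x2 := by
  classical
  set R := Localization.AtPrime m
  have hreg : IsRegularLocalRing R := inferInstance
  have h1 : ((IsLocalRing.maximalIdeal R).spanFinrank : WithBot ℕ∞) ≤ 2 := by
    rw [hreg.spanFinrank_maximalIdeal, IsLocalization.AtPrime.ringKrullDim_eq_height m R]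
    exact WithBot.coe_le_coe.2 hdim
  have h2 : (IsLocalRing.maximalIdeal R).spanFinrank ≤ 2 := by exact_mod_cast h1
  obtain ⟨T, hT, hTs⟩ := Submodule.FG.exists_span_finset_card_eq_spanFinrank
    (IsNoetherian.noetherian (IsLocalRing.maximalIdeal R))
  have hTm : ∀ t ∈ T, t ∈ IsLocalRing.maximalIdeal R := fun t ht => by
    rw [← hTs]; exact Submodule.subset_span ht
  obtain ⟨y1, hy1, y2, hy2, hT2⟩ : ∃ y1 ∈ IsLocalRing.maximalIdeal R,
      ∃ y2 ∈ IsLocalRing.maximalIdeal R, (T : Set R) ⊆ {y1, y2} := by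
    have hc : T.card ≤ 2 := hT ▸ h2
    rcases (by omega : T.card = 0 ∨ T.card = 1 ∨ T.card = 2) with h | h | h
    · rw [Finset.card_eq_zero] at h
      exact ⟨0, zero_mem _, 0, zero_mem _, by simp [h]⟩
    · obtain ⟨a, rfl⟩ := Finset.card_eq_one.mp h
      exact ⟨a, hTm a (by simp), a, hTm a (by simp), by simp⟩
    · obtain ⟨a, b, -, rfl⟩ := Finset.card_eq_two.mp h
      exact ⟨a, hTm a (by simp), b, hTm b (by simp), by simp⟩
  obtain ⟨⟨x1, s1⟩, rfl⟩ := IsLocalization.mk'_surjective m.primeCompl y1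
  obtain ⟨⟨x2, s2⟩, rfl⟩ := IsLocalization.mk'_surjective m.primeCompl y2
  simp only at hy1 hy2 hT2
  rw [IsLocalization.AtPrime.mk'_mem_maximal_iff R m] at hy1 hy2
  refine ⟨x1, hy1, x2, hy2, fun f hf => ?_⟩
  have hf' : algebraMap A R f ∈ Ideal.map (algebraMap A R) (Ideal.span {x1, x2}) := by
    have : algebraMap A R f ∈ IsLocalRing.maximalIdeal R :=
      (IsLocalization.AtPrime.to_map_mem_maximal_iff R m f).mpr hf
    rw [← hTs] at this
    refine (Submodule.span_le.mpr ?_ : _ ≤ Ideal.map (algebraMap A R) (Ideal.span {x1, x2})) this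
    refine hT2.trans ?_
    intro z hz
    rcases hz with rfl | rfl
    · rw [IsLocalization.mk'_eq_mul_mk'_one]
      exact Ideal.mul_mem_right _ _ (Ideal.mem_map_of_mem _ (Ideal.subset_span (by simp)))
    · rw [IsLocalization.mk'_eq_mul_mk'_one]
      exact Ideal.mul_mem_right _ _ (Ideal.mem_map_of_mem _ (Ideal.subset_span (by simp)))
  obtain ⟨s, hs, hsf⟩ :=
    (IsLocalization.algebraMap_mem_map_algebraMap_iff m.primeCompl R _ f).mp hf'
  obtain ⟨u1, u2, hu⟩ := Ideal.mem_span_pair.mp hsf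
  exact ⟨s, hs, u1, u2, hu.symm⟩

theorem not_reg {A : Type*} [CommRing A] [IsDomain A] [Algebra ℂ A] (D1 D2 : Derivation ℂ A A)
    (m : Ideal A) (a b : A) (hm : m ∈ (Ideal.span {a, b}).minimalPrimes)
    (hC : ∀ f : A, ∃ c : ℂ, f - algebraMap ℂ A c ∈ m) (hD : ∀ f, D1 f ∈ m ∧ D2 f ∈ m)
    (hJ : ∃ x y, Jc D1 D2 x y ≠ 0)
    (hH : ∀ s d : A, d ≠ 0 → (∀ x y, d ∣ s * Jc D1 D2 x y) → d ∣ s) : ¬ IsRegularRing A := by
  classical
  intro hreg
  have hmP : m.IsPrime := hm.isPrime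
  have hdim : m.height ≤ 2 := by
    have h1 := Ideal.height_le_card_of_mem_minimalPrimes_span_finset (s := ({a, b} : Finset A))
      (p := m) (by simpa using hm)
    exact h1.trans (by exact_mod_cast Finset.card_le_two)
  obtain ⟨x1, hx1, x2, hx2, hx⟩ := sreg_two m hdim
  let v : A → A × A := fun f => (D1 f, D2 f)
  let N : Submodule A (A × A) := Submodule.span A (Set.range v)
  let N' : Submodule A (A × A) := Submodule.span A {v x1, v x2}
  have hvN : ∀ f, v f ∈ N := fun f => Submodule.subset_span ⟨f, rfl⟩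
  have hle : N ≤ N' ⊔ m • N := by
    refine Submodule.span_le.mpr ?_
    rintro _ ⟨f, rfl⟩
    obtain ⟨cf, hf0m⟩ := hC f
    set f0 := f - algebraMap ℂ A cf with hf0
    have hv0 : v f = v f0 := by simp [v, hf0]
    obtain ⟨s, hs, u1, u2, hu⟩ := hx f0 hf0m
    obtain ⟨cs, hs0m⟩ := hC s
    have hes : cs ≠ 0 := by
      rintro rfl
      exact hs (by simpa using hs0m)
    set s0 := s - algebraMap ℂ A cs with hs0
    have hc : algebraMap ℂ A cs⁻¹ * algebraMap ℂ A cs = 1 := by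
      rw [← map_mul, inv_mul_cancel₀ hes, map_one]
    have k1 := congrArg D1 hu
    have k2 := congrArg D2 hu
    simp only [map_add, Derivation.leibniz, smul_eq_mul] at k1 k2
    have key : v f0 = algebraMap ℂ A cs⁻¹ • ((u1 • v x1 + u2 • v x2) +
        (x1 • v u1 + x2 • v u2 - f0 • v s - s0 • v f0)) := by
      have hs' : s = s0 + algebraMap ℂ A cs := by simp [hs0]
      ext
      · simp only [v, Prod.smul_fst, Prod.fst_add, Prod.fst_sub, smul_eq_mul]
        linear_combination (-(D1 f0)) * hc + algebraMap ℂ A cs⁻¹ * k1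
          - algebraMap ℂ A cs⁻¹ * D1 f0 * hs'
      · simp only [v, Prod.smul_snd, Prod.snd_add, Prod.snd_sub, smul_eq_mul]
        linear_combination (-(D2 f0)) * hc + algebraMap ℂ A cs⁻¹ * k2
          - algebraMap ℂ A cs⁻¹ * D2 f0 * hs'
    show v f ∈ N' ⊔ m • N
    rw [hv0, key]
    refine Submodule.smul_mem _ _ (Submodule.add_mem_sup ?_ ?_)
    · exact add_mem (Submodule.smul_mem _ _ (Submodule.subset_span (by simp)))
        (Submodule.smul_mem _ _ (Submodule.subset_span (by simp)))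
    · exact sub_mem (sub_mem (add_mem (Submodule.smul_mem_smul hx1 (hvN _))
        (Submodule.smul_mem_smul hx2 (hvN _))) (Submodule.smul_mem_smul hf0m (hvN _)))
        (Submodule.smul_mem_smul hs0m (hvN _))
  obtain ⟨r, hr1, hr⟩ := Submodule.exists_sub_one_mem_and_smul_le_of_fg_of_le_sup
    (IsNoetherian.noetherian N) le_rfl hle
  have hex : ∀ f, ∃ a b : A, r * D1 f = a * D1 x1 + b * D1 x2 ∧
      r * D2 f = a * D2 x1 + b * D2 x2 := by
    intro f
    have : r • v f ∈ N' := hr (Submodule.smul_mem_pointwise_smul _ _ _ (hvN f))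
    obtain ⟨a, b, hab⟩ := Submodule.mem_span_pair.mp this
    refine ⟨a, b, ?_, ?_⟩
    · simpa [v] using (congrArg Prod.fst hab).symm
    · simpa [v] using (congrArg Prod.snd hab).symm
  have hrm : r ∉ m := fun h => hmP.ne_top ((Ideal.eq_top_iff_one m).2 (by
    simpa using sub_mem h hr1))
  have hr0 : r ≠ 0 := by
    rintro rfl
    exact hrm m.zero_mem
  have hdv : ∀ x y, Jc D1 D2 x1 x2 ∣ r * r * Jc D1 D2 x y := by
    intro x y
    obtain ⟨a, b, ha1, ha2⟩ := hex x
    obtain ⟨c, d, hc1, hc2⟩ := hex y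
    refine ⟨a * d - b * c, ?_⟩
    have e1 : r * r * Jc D1 D2 x y = (r * D1 x) * (r * D2 y) - (r * D2 x) * (r * D1 y) := by
      unfold Jc
      ring
    rw [e1, ha1, ha2, hc1, hc2]
    unfold Jc
    ring
  have hΔ0 : Jc D1 D2 x1 x2 ≠ 0 := by
    obtain ⟨x, y, hxy⟩ := hJ
    intro h0
    have := hdv x y
    rw [h0, zero_dvd_iff] at this
    exact mul_ne_zero (mul_ne_zero hr0 hr0) hxy this
  have hΔm : Jc D1 D2 x1 x2 ∈ m :=
    sub_mem (m.mul_mem_right _ (hD x1).1) (m.mul_mem_right _ (hD x1).2)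
  obtain ⟨t, ht⟩ := hH (r * r) _ hΔ0 hdv
  have h2 : r * r ∈ m := by
    rw [ht]
    exact m.mul_mem_right _ hΔm
  exact (hmP.mem_or_mem h2).elim hrm hrm

end Vale.Agent.P266
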