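import Vale.Agent.P266.SoftD

namespace Vale.Agent.P266

variable {B : Type*} [CommRing B] [IsDomain B] [Algebra ℂ B]

omit [Algebra ℂ B] in
theorem tr_le (a b g : B) : Tr a b ≤ Tr (g * a) (g * b) := by
  rintro z ⟨n, x, y, h1, h2⟩
  refine ⟨n, g ^ n * x, g ^ n * y, ?_, ?_⟩
  · simp only [map_mul, map_pow, ← h1]; ring
  · simp only [map_mul, map_pow, ← h2]; ring

omit [Algebra ℂ B] in
theorem tr_pow (a b g : B) (z : Tr (g * a) (g * b)) :
    ∃ (n : ℕ) (y : Tr a b), (y : FractionRing B) = algebraMap B _ g ^ n * z := by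
  obtain ⟨n, x, y, h1, h2⟩ := z.2
  refine ⟨n, ⟨algebraMap B _ g ^ n * z, n, x, y, ?_, ?_⟩, rfl⟩
  · rw [← h1, map_mul]; ring
  · rw [← h2, map_mul]; ring

theorem tr_prime (e : B →ₐ[ℂ] ℂ) (a b g : B) (hg : e g ≠ 0) (h : Module.Finite B (Tr a b)) :
    (RingHom.ker e).map (algebraMap B (Tr (g * a) (g * b))) ≠ ⊤ := by
  have hp : (RingHom.ker e).IsPrime := RingHom.ker_isPrime e
  have hinj : Function.Injective (algebraMap B (Tr a b)) := fun x y hxy =>
    IsFractionRing.injective B (FractionRing B) (congrArg Subtype.val hxy)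
  obtain ⟨Q, hQ, hQc⟩ := Ideal.exists_ideal_over_prime_of_isIntegral_of_isPrime
    (S := Tr a b) (RingHom.ker e) ⊥ (by
      rw [← RingHom.ker_eq_comap_bot, (RingHom.injective_iff_ker_eq_bot _).1 hinj]
      exact bot_le)
  obtain ⟨hQp, hQc⟩ := hQc
  have key : ∀ w ∈ (RingHom.ker e).map (algebraMap B (Tr (g * a) (g * b))),
      ∃ (k : ℕ) (y : Tr a b), y ∈ Q ∧ (y : FractionRing B) = algebraMap B _ g ^ k * w := by
    intro w hw
    induction hw using Submodule.span_induction with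
    | mem x hx =>
      obtain ⟨r, hr, rfl⟩ := hx
      refine ⟨0, algebraMap B _ r, ?_, by simp⟩
      rw [← Ideal.mem_comap, hQc]
      exact hr
    | zero => exact ⟨0, 0, zero_mem _, by simp⟩
    | add x y _ _ hx hy =>
      obtain ⟨k, x', hx1, hx2⟩ := hx
      obtain ⟨l, y', hy1, hy2⟩ := hy
      refine ⟨k + l, algebraMap B _ g ^ l * x' + algebraMap B _ g ^ k * y',
        add_mem (Q.mul_mem_left _ hx1) (Q.mul_mem_left _ hy1), ?_⟩
      simp only [Subalgebra.coe_add, Subalgebra.coe_mul, Subalgebra.coe_pow,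
        Subalgebra.coe_algebraMap, hx2, hy2]
      ring
    | smul c x _ hx =>
      obtain ⟨k, x', hx1, hx2⟩ := hx
      obtain ⟨l, c', hc⟩ := tr_pow a b g c
      refine ⟨l + k, c' * x', Q.mul_mem_left _ hx1, ?_⟩
      simp only [Subalgebra.coe_mul, smul_eq_mul, hx2, hc]
      ring
  intro htop
  obtain ⟨k, y, hy1, hy2⟩ := key 1 (htop ▸ Submodule.mem_top)
  have e1 : y = algebraMap B _ g ^ k := Subtype.ext (by simpa using hy2)
  rw [e1] at hy1
  have := hQp.mem_of_pow_mem _ hy1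
  rw [← Ideal.mem_comap, hQc] at this
  exact hg this

theorem tr_res1 {B A R : Type*} [CommRing B] [Algebra ℂ B] [CommRing A] [Algebra B A]
    [Algebra.IsIntegral B A] [CommRing R] [IsDomain R] [Algebra ℂ R] (φ : B →ₐ[ℂ] R) (ψ : A →+* R)
    (hψ : ∀ x, ψ (algebraMap B A x) = φ x) {a b : B}
    (h2 : ∀ x : B, IsIntegral (Algebra.adjoin ℂ {a, b}) x) (ha : φ a = 0) (hb : φ b = 0) (y : A) :
    ∃ c : ℂ, algebraMap ℂ R c = ψ y := by
  have hB : ∀ x : B, IsIntegral ℂ (φ x) := by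
    intro x
    have h1 : IsIntegral (integralClosure ℂ R) (φ x) := by
      refine int_map φ (fun s hs => ?_) (h2 x)
      refine (Algebra.adjoin_le (S := (integralClosure ℂ R).comap φ) ?_) hs
      rintro y (rfl | rfl)
      · simp only [SetLike.mem_coe, Subalgebra.mem_comap, ha]
        exact zero_mem _
      · simp only [SetLike.mem_coe, Subalgebra.mem_comap, hb]
        exact zero_mem _
    exact isIntegral_trans _ h1
  have h1 : IsIntegral (integralClosure ℂ R) (ψ y) :=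
    IsIntegral.map_of_comp_eq (φ.toRingHom.codRestrict (integralClosure ℂ R).toSubring hB)
      ψ (RingHom.ext fun x => (hψ x).symm) (Algebra.IsIntegral.isIntegral (R := B) y)
  obtain ⟨c, hc⟩ := (IsAlgClosed.algebraMap_bijective_of_isIntegral (k := ℂ)
    (K := integralClosure ℂ R)).2 ⟨ψ y, isIntegral_trans _ h1⟩
  exact ⟨c, congrArg Subtype.val hc⟩

theorem tr_res2 {B A T : Type*} [CommRing B] [Algebra ℂ B] [CommRing A] [Algebra B A]
    [Algebra.IsIntegral B A] [CommRing T] [Algebra ℂ T] (φ : B →ₐ[ℂ] T) (ψ : A →+* T)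
    (hψ : ∀ x, ψ (algebraMap B A x) = φ x) {a b g : B}
    (h2 : ∀ x : B, IsIntegral (Algebra.adjoin ℂ {a, b}) x) (q : Ideal T) (hq : q.IsPrime)
    (ha : φ a ∈ q) (hb : φ b ∈ q) (hg : IsUnit (φ g)) (f : T) (n : ℕ) (y : A)
    (hy : ψ y = φ g ^ n * f) : ∃ c : ℂ, f - algebraMap ℂ T c ∈ q := by
  have key := tr_res1 ((Ideal.Quotient.mkₐ ℂ q).comp φ) ((Ideal.Quotient.mk q).comp ψ)
    (fun x => by simp [hψ]) h2 (Ideal.Quotient.eq_zero_iff_mem.2 ha)
    (Ideal.Quotient.eq_zero_iff_mem.2 hb)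
  obtain ⟨c, hc⟩ := key y
  obtain ⟨d, hd⟩ := key (algebraMap B A g)
  simp only [RingHom.comp_apply, hψ, hy, map_mul, map_pow] at hc hd
  have hd0 : d ≠ 0 := by
    rintro rfl
    rw [map_zero] at hd
    exact hq.ne_top (Ideal.eq_top_of_isUnit_mem _ (Ideal.Quotient.eq_zero_iff_mem.1 hd.symm) hg)
  refine ⟨c / d ^ n, Ideal.Quotient.eq.1 ?_⟩
  have e2 : Ideal.Quotient.mk q (algebraMap ℂ _ (c / d ^ n)) = algebraMap ℂ _ (c / d ^ n) := rfl
  rw [e2, div_eq_inv_mul, map_mul, hc, ← hd, ← map_pow, ← mul_assoc, ← map_mul,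
    inv_mul_cancel₀ (pow_ne_zero _ hd0), map_one, one_mul]

theorem tr_res (a b g : B) (hg : g ≠ 0) (h2 : ∀ x : B, IsIntegral (Algebra.adjoin ℂ {a, b}) x)
    (h : Module.Finite B (Tr a b)) (q : Ideal (Tr (g * a) (g * b))) (hq : q.IsPrime)
    (ha : algebraMap B _ a ∈ q) (hb : algebraMap B _ b ∈ q) (f : Tr (g * a) (g * b)) :
    ∃ c : ℂ, f - algebraMap ℂ _ c ∈ q := by
  obtain ⟨n, y, hy⟩ := tr_pow a b g f
  have hgK : algebraMap B (FractionRing B) g ≠ 0 :=
    (map_ne_zero_iff _ (IsFractionRing.injective B (FractionRing B))).2 hg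
  have hgu : IsUnit (algebraMap B (Tr (g * a) (g * b)) g) := by
    refine IsUnit.of_mul_eq_one ⟨(algebraMap B (FractionRing B) g)⁻¹, 1, a, b, ?_, ?_⟩
      (Subtype.ext ?_)
    · rw [map_mul]; field_simp
    · rw [map_mul]; field_simp
    · simpa using mul_inv_cancel₀ hgK
  exact tr_res2 (IsScalarTower.toAlgHom ℂ B _) (Subalgebra.inclusion (tr_le a b g)).toRingHom
    (fun x => rfl) h2 q hq ha hb hgu f n y (Subtype.ext (by simpa using hy))

end Vale.Agent.P266
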