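import Vale.Agent.P266.SDiff
import Vale.Agent.P266.SFree
import Vale.Agent.P266.SReg
import Vale.Agent.P266.SExt
import Vale.Agent.P266.SInd
import Vale.Agent.P266.SFin
import Vale.Agent.P266.STr

namespace Vale.Agent.P266

theorem soft_end {B A : Type} [CommRing B] [Algebra ℂ B] [CommRing A] [IsDomain A] [Algebra ℂ A]
    (φ : B →ₐ[ℂ] A) (m : Ideal B) (D1 D2 : Derivation ℂ B B) (E1 E2 : Derivation ℂ A A)
    (hE1 : ∀ x, E1 (φ x) = φ (D1 x)) (hE2 : ∀ x, E2 (φ x) = φ (D2 x)) (a b : B) (ha : a ∈ m)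
    (hb : b ∈ m) (h1 : ∀ x, D1 x ∈ m ∧ D2 x ∈ m) (hm : m.map φ ≠ ⊤)
    (hC : ∀ q : Ideal A, q.IsPrime → φ a ∈ q → φ b ∈ q → ∀ f : A,
      ∃ c : ℂ, f - algebraMap ℂ A c ∈ q)
    (hJ : ∃ x y, Jc E1 E2 x y ≠ 0)
    (hH : ∀ s d : A, d ≠ 0 → (∀ x y, d ∣ s * Jc E1 E2 x y) → d ∣ s) : ¬ IsRegularRing A := by
  obtain ⟨q, hq⟩ := Ideal.nonempty_minimalPrimes hm
  have hqp : q.IsPrime := hq.1.1
  have hqa : φ a ∈ q := hq.1.2 (Ideal.mem_map_of_mem _ ha)
  have hqb : φ b ∈ q := hq.1.2 (Ideal.mem_map_of_mem _ hb)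
  have hd : ∀ (D : Derivation ℂ B B) (E : Derivation ℂ A A), (∀ x, E (φ x) = φ (D x)) →
      (∀ x, D x ∈ m) → ∀ f, E f ∈ q := by
    intro D E hE hD f
    have hI : ∀ x ∈ m.map φ, E x ∈ m.map φ := by
      intro x hx
      induction hx using Submodule.span_induction with
      | mem x hx =>
        obtain ⟨r, -, rfl⟩ := hx
        rw [hE]
        exact Ideal.mem_map_of_mem _ (hD r)
      | zero => simp
      | add x y _ _ hx hy => rw [map_add]; exact add_mem hx hy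
      | smul c x hx' hx =>
        rw [smul_eq_mul, Derivation.leibniz, smul_eq_mul, smul_eq_mul]
        exact add_mem (Ideal.mul_mem_left _ _ hx) (Ideal.mul_mem_right _ _ hx')
    obtain ⟨c, hc⟩ := hC q hqp hqa hqb f
    simpa using diff_min E hI hq _ hc
  refine not_reg E1 E2 q (φ a) (φ b) ⟨⟨hqp, ?_⟩, ?_⟩ (hC q hqp hqa hqb)
    (fun f => ⟨hd D1 E1 hE1 (fun x => (h1 x).1) f, hd D2 E2 hE2 (fun x => (h1 x).2) f⟩) hJ hH
  · rw [Ideal.span_le]
    rintro y (rfl | rfl)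
    · exact hqa
    · exact hqb
  · rintro p ⟨hp, hle⟩ hpq f hf
    obtain ⟨c, hc⟩ := hC p hp (hle (Ideal.subset_span (by simp)))
      (hle (Ideal.subset_span (by simp))) f
    have h3 : algebraMap ℂ A c ∈ q := by simpa using q.sub_mem hf (hpq hc)
    by_cases h0 : c = 0
    · simpa [h0] using hc
    · exact absurd (Ideal.eq_top_of_isUnit_mem _ h3 ((IsUnit.mk0 c h0).map _)) hqp.ne_top

theorem soft_dom {B : Type} [CommRing B] [IsDomain B] [Algebra ℂ B] [Algebra.FiniteType ℂ B]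
    (e : B →ₐ[ℂ] ℂ) (D1 D2 : Derivation ℂ B B) (a b g : B) (ha : e a = 0) (hb : e b = 0)
    (h1 : ∀ x, e (D1 x) = 0 ∧ e (D2 x) = 0)
    (h2 : ∀ x : B, IsIntegral (Algebra.adjoin ℂ {a, b}) x) (hJ : ∃ x y, Jc D1 D2 x y ≠ 0)
    (hg : e g ≠ 0) (h4 : ∀ p : Ideal B, p.IsPrime → g ∉ p → (∀ x y, Jc D1 D2 x y ∈ p) →
      RingHom.ker e ≤ p) :
    ∃ (A : Type) (_ : CommRing A) (_ : IsDomain A) (_ : Algebra ℂ A), Algebra.FiniteType ℂ A ∧
      Module.Free A (Derivation ℂ A A) ∧ ¬ IsRegularRing A := by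
  have hg0 : g ≠ 0 := by
    rintro rfl
    exact hg (map_zero e)
  have hab := jac_ne D1 D2 a b (fun D ha hb => Derivation.ext fun x =>
    der_zero (AlgHom.id ℂ B) h2 D ha hb x) hJ
  have ha0 : a ≠ 0 := by
    rintro rfl
    exact hab (by simp [Jc])
  have hfin : Module.Finite B (Tr a b) := tr_fin _ h2 a b ha0 (Algebra.subset_adjoin (by simp))
    (Algebra.subset_adjoin (by simp)) (cop_of_jac D1 D2 a b hab)
  obtain ⟨E1, hE1⟩ := der_tr (g * a) (g * b) D1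
  obtain ⟨E2, hE2⟩ := der_tr (g * a) (g * b) D2
  have hinj : Function.Injective (algebraMap B (Tr (g * a) (g * b))) := fun x y hxy =>
    IsFractionRing.injective B (FractionRing B) (congrArg Subtype.val hxy)
  have hJc : ∀ x y, Jc E1 E2 (algebraMap B _ x) (algebraMap B _ y) =
      algebraMap B _ (Jc D1 D2 x y) := fun x y => by
    simp only [Jc, hE1, hE2, map_sub, map_mul]
  have hJ' : ∃ x y, Jc E1 E2 x y ≠ 0 :=
    ⟨_, _, by rw [hJc a b]; exact (map_ne_zero_iff _ hinj).2 hab⟩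
  have hrad : ∀ x, e x = 0 → algebraMap B (Tr (g * a) (g * b)) (g * x) ∈
      (Ideal.span {z | ∃ x y, z = Jc E1 E2 x y}).radical := by
    intro x hx
    rw [Ideal.radical_eq_sInf, Ideal.mem_sInf]
    rintro p ⟨hle, hp⟩
    rw [← Ideal.mem_comap]
    by_cases hgp : g ∈ p.comap (algebraMap B (Tr (g * a) (g * b)))
    · exact Ideal.mul_mem_right _ _ hgp
    · refine Ideal.mul_mem_left _ _ (h4 _ (Ideal.comap_isPrime _ p) hgp (fun x y => ?_) hx)
      rw [Ideal.mem_comap, ← hJc]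
      exact hle (Ideal.subset_span ⟨_, _, rfl⟩)
  have hH := tr_H (g * a) (g * b) E1 E2 (hrad a ha) (hrad b hb)
  have hz : ∀ D : Derivation ℂ (Tr (g * a) (g * b)) (Tr (g * a) (g * b)),
      D (algebraMap B _ a) = 0 → D (algebraMap B _ b) = 0 → D = 0 := by
    intro D ha hb
    have h0 : ∀ x : B, D (algebraMap B _ x) = 0 :=
      der_zero (IsScalarTower.toAlgHom ℂ B _) h2 D ha hb
    ext1 z
    obtain ⟨n, x, y, hx, -⟩ := z.2
    have e1 : algebraMap B (Tr (g * a) (g * b)) ((g * a) ^ n) * z = algebraMap B _ x :=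
      Subtype.ext (by simpa using hx)
    have e2 := congrArg D e1
    rw [Derivation.leibniz, h0, h0, smul_zero, add_zero, smul_eq_mul] at e2
    exact (mul_eq_zero.1 e2).resolve_left
      ((map_ne_zero_iff _ hinj).2 (pow_ne_zero _ (mul_ne_zero hg0 ha0)))
  exact ⟨Tr (g * a) (g * b), inferInstance, inferInstance, inferInstance, tr_ft a b g hg0 hfin,
    der_free E1 E2 _ _ hz hJ' hH,
    soft_end (IsScalarTower.toAlgHom ℂ B _) (RingHom.ker e) D1 D2 E1 E2 hE1 hE2 a b ha hb h1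
      (tr_prime e a b g hg hfin) (fun q hq => tr_res a b g hg0 h2 hfin q hq) hJ' hH⟩

theorem soft {B : Type} [CommRing B] [Algebra ℂ B] [Algebra.FiniteType ℂ B] (e : B →ₐ[ℂ] ℂ)
    (D1 D2 : Derivation ℂ B B) (a b : B) (h1 : ∀ x, e (D1 x) = 0 ∧ e (D2 x) = 0)
    (h2 : ∀ x : B, IsIntegral (Algebra.adjoin ℂ {a, b}) x)
    (h3 : ∃ p0 : Ideal B, p0.IsPrime ∧ p0 ≤ RingHom.ker e ∧ p0 ≠ RingHom.ker e)
    (h4 : ∃ g, e g ≠ 0 ∧ ∀ p : Ideal B, p.IsPrime → g ∉ p →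
      (∀ x y, D1 x * D2 y - D2 x * D1 y ∈ p) → RingHom.ker e ≤ p) :
    ∃ (A : Type) (_ : CommRing A) (_ : IsDomain A) (_ : Algebra ℂ A), Algebra.FiniteType ℂ A ∧
      Module.Free A (Derivation ℂ A A) ∧ ¬ IsRegularRing A := by
  obtain ⟨p0, hp0, hle, hne⟩ := h3
  obtain ⟨g, hg, h4⟩ := h4
  obtain ⟨P, hP, hP0⟩ := Ideal.exists_minimalPrimes_le (I := ⊥) (J := p0) bot_le
  have hPp : P.IsPrime := hP.1.1
  have hPe : ∀ x ∈ P, e x = 0 := fun x hx => hle (hP0 hx)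
  have hsur : Function.Surjective (Ideal.Quotient.mkₐ ℂ P) := Ideal.Quotient.mkₐ_surjective ℂ P
  have hlift : ∀ D : Derivation ℂ B B, ∃ E : Derivation ℂ (B ⧸ P) (B ⧸ P),
      ∀ x, E (Ideal.Quotient.mkₐ ℂ P x) = Ideal.Quotient.mkₐ ℂ P (D x) := fun D =>
    ⟨Derivation.liftOfSurjective hsur (d := D) fun x hx => Ideal.Quotient.eq_zero_iff_mem.2
      (diff_min D (I := ⊥) (fun y hy => by rw [Ideal.mem_bot.1 hy, map_zero]; exact zero_mem _) hP x
        (Ideal.Quotient.eq_zero_iff_mem.1 hx)), fun x => Derivation.liftOfSurjective_apply _ _ x⟩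
  obtain ⟨E1, hE1⟩ := hlift D1
  obtain ⟨E2, hE2⟩ := hlift D2
  obtain ⟨φ, hφ⟩ : ∃ φ : B →ₐ[ℂ] B ⧸ P, φ = Ideal.Quotient.mkₐ ℂ P := ⟨_, rfl⟩
  have he : ∀ x, Ideal.Quotient.liftₐ P e hPe (φ x) = e x := fun x => by rw [hφ]; rfl
  have hk : ∀ x, φ x = 0 ↔ x ∈ P := fun x => by
    rw [hφ]; exact Ideal.Quotient.eq_zero_iff_mem
  rw [← hφ] at hE1 hE2 hsur
  have hJc : ∀ x y, Jc E1 E2 (φ x) (φ y) = φ (D1 x * D2 y - D2 x * D1 y) := fun x y => by
    simp only [Jc, hE1, hE2, map_sub, map_mul]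
  refine soft_dom (Ideal.Quotient.liftₐ P e hPe) E1 E2 (φ a - algebraMap ℂ _ (e a))
    (φ b - algebraMap ℂ _ (e b)) (φ g) (by rw [map_sub, he, AlgHom.commutes]; simp)
    (by rw [map_sub, he, AlgHom.commutes]; simp) (fun x => ?_) (fun x => ?_)
    ?_ (by rwa [he]) fun p hp hgp hJ x hx => ?_
  · obtain ⟨x, rfl⟩ := hsur x
    rw [hE1, hE2, he, he]
    exact h1 x
  · obtain ⟨x, rfl⟩ := hsur x
    refine int_map φ (fun s hs => ?_) (h2 x)
    refine (Algebra.adjoin_le (S := (Algebra.adjoin ℂ _).comap φ) ?_) hs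
    rintro y (rfl | rfl)
    · rw [SetLike.mem_coe, Subalgebra.mem_comap, ← sub_add_cancel (φ y) (algebraMap ℂ _ (e y))]
      exact add_mem (Algebra.subset_adjoin (by simp)) (algebraMap_mem _ _)
    · rw [SetLike.mem_coe, Subalgebra.mem_comap, ← sub_add_cancel (φ y) (algebraMap ℂ _ (e y))]
      exact add_mem (Algebra.subset_adjoin (by simp)) (algebraMap_mem _ _)
  · by_contra hno
    push Not at hno
    refine hne (le_antisymm hle ((h4 P hPp (fun h => hg (hPe g h)) fun x y => ?_).trans hP0))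
    rw [← hk, ← hJc]
    exact hno _ _
  · obtain ⟨x, rfl⟩ := hsur x
    refine h4 (p.comap φ) (Ideal.comap_isPrime _ p) hgp (fun x y => ?_) ?_
    · rw [Ideal.mem_comap, ← hJc]
      exact hJ _ _
    · rw [RingHom.mem_ker, he] at hx
      exact hx

end Vale.Agent.P266
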