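import Mathlib

/-! Definitions for the soft part of P266. -/

namespace Vale.Agent.P266

/-- Jacobian of two derivations -/
def Jc {A : Type*} [CommRing A] [Algebra ℂ A] (D1 D2 : Derivation ℂ A A) (x y : A) : A :=
  D1 x * D2 y - D2 x * D1 y

/-- fractions that enter `B` after multiplication by a power of `u` and by a power of `v` -/
def Tr {B : Type*} [CommRing B] [IsDomain B] (u v : B) : Subalgebra B (FractionRing B) where
  carrier := {z | ∃ (n : ℕ) (x y : B), algebraMap B _ u ^ n * z = algebraMap B _ x ∧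
    algebraMap B _ v ^ n * z = algebraMap B _ y}
  mul_mem' := by
    rintro z w ⟨n, x, y, h1, h2⟩ ⟨k, x', y', h3, h4⟩
    refine ⟨n + k, x * x', y * y', ?_, ?_⟩
    · rw [map_mul, ← h1, ← h3]; ring
    · rw [map_mul, ← h2, ← h4]; ring
  add_mem' := by
    rintro z w ⟨n, x, y, h1, h2⟩ ⟨k, x', y', h3, h4⟩
    refine ⟨n + k, u ^ k * x + u ^ n * x', v ^ k * y + v ^ n * y', ?_, ?_⟩
    · simp only [map_add, map_mul, map_pow, ← h1, ← h3]; ring
    · simp only [map_add, map_mul, map_pow, ← h2, ← h4]; ring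
  algebraMap_mem' r := ⟨0, r, r, by simp, by simp⟩

theorem mem_Tr {B : Type*} [CommRing B] [IsDomain B] {u v : B} {z : FractionRing B} :
    z ∈ Tr u v ↔ ∃ (n : ℕ) (x y : B), algebraMap B _ u ^ n * z = algebraMap B _ x ∧
      algebraMap B _ v ^ n * z = algebraMap B _ y := Iff.rfl

theorem int_map {B R : Type*} [CommRing B] [Algebra ℂ B] [CommRing R] [Algebra ℂ R]
    (φ : B →ₐ[ℂ] R) {S : Subalgebra ℂ B} {T : Subalgebra ℂ R} (h : ∀ s ∈ S, φ s ∈ T) {x : B}
    (hx : IsIntegral S x) : IsIntegral T (φ x) :=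
  IsIntegral.map_of_comp_eq ((φ.toRingHom.comp S.val.toRingHom).codRestrict T.toSubring
    fun s => h s s.2) φ.toRingHom rfl hx

end Vale.Agent.P266
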