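import Mathlib

namespace Vale.Agent.P266

/-- Commutator of an operator with multiplication by `x`. -/
def adx {R : Type} [CommRing R] (x : R) (P : R → R) : R → R := fun z => P (x * z) - x * P z

theorem adx_iter_D {R : Type} [CommRing R] [Algebra ℂ R] (D : Derivation ℂ R R) (x : R)
    (P : R → R) (k : ℕ) :
    (adx x)^[k + 1] (fun z => D (P z)) =
      fun z => D ((adx x)^[k + 1] P z) + ((k : R) + 1) * D x * (adx x)^[k] P z := by
  induction k with
  | zero =>
    funext z
    simp only [adx, zero_add, Function.iterate_one, Function.iterate_zero, id_eq, map_sub,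
      Derivation.leibniz, smul_eq_mul, Nat.cast_zero]
    ring
  | succ k ih =>
    rw [Function.iterate_succ_apply', ih]
    funext z
    rw [Function.iterate_succ_apply' (adx x) (k + 1) P, Function.iterate_succ_apply' (adx x) k P]
    simp only [adx, map_sub, Derivation.leibniz, smul_eq_mul]
    push_cast
    ring

theorem adx_iter_pow {R : Type} [CommRing R] [Algebra ℂ R] (D : Derivation ℂ R R) (x : R)
    (n : ℕ) :
    ((adx x)^[n] (fun z => (⇑D)^[n] z) = fun z => (n.factorial : R) * (D x) ^ n * z) ∧
    ((adx x)^[n + 1] (fun z => (⇑D)^[n] z) = fun _ => 0) := by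
  induction n with
  | zero =>
    constructor
    · funext z; simp
    · funext z; simp [adx]
  | succ n ih =>
    obtain ⟨h1, h2⟩ := ih
    have e : (fun z => (⇑D)^[n + 1] z) = fun z => D ((fun w => (⇑D)^[n] w) z) := by
      funext z; rw [Function.iterate_succ_apply']
    constructor
    · rw [e, adx_iter_D, h1, h2]
      funext z
      simp only [map_zero, zero_add, Nat.factorial_succ]
      push_cast
      ring
    · rw [e, adx_iter_D, Function.iterate_succ_apply' (adx x) (n + 1), h2]
      funext z
      simp [adx]

theorem adx_iter_sub_mem {R : Type} [CommRing R] (x : R) (I : Ideal R) (hx : x ∈ I) (n : ℕ) :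
    ∀ (P : R → R) (z : R), (adx x)^[n] P z - P (x ^ n * z) ∈ I := by
  induction n with
  | zero => intro P z; simp
  | succ n ih =>
    intro P z
    rw [Function.iterate_succ_apply]
    have h := ih (adx x P) z
    have e : (adx x)^[n] (adx x P) z - P (x ^ (n + 1) * z) =
        ((adx x)^[n] (adx x P) z - adx x P (x ^ n * z)) - x * P (x ^ n * z) := by
      simp only [adx]
      rw [show x * (x ^ n * z) = x ^ (n + 1) * z by ring]
      ring
    rw [e]
    exact I.sub_mem h (I.mul_mem_right _ hx)

/-- Minimal primes over a differential ideal are differential (characteristic zero). -/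
theorem minprime_diff {B : Type} [CommRing B] [Algebra ℂ B] (D : Derivation ℂ B B)
    (I P : Ideal B) (hI : ∀ x ∈ I, D x ∈ I) (hP : P ∈ I.minimalPrimes) : ∀ x ∈ P, D x ∈ P := by
  intro x hx
  have hPp : P.IsPrime := hP.1.1
  have hIP : I ≤ P := hP.1.2
  have hrad := IsLocalization.AtPrime.radical_map_of_mem_minimalPrimes
    (A := Localization.AtPrime P) P I hP
  have hm : algebraMap B (Localization.AtPrime P) x ∈
      (I.map (algebraMap B (Localization.AtPrime P))).radical := by
    rw [hrad]; exact Ideal.mem_map_of_mem _ hx
  obtain ⟨n, hn⟩ := hm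
  rw [← map_pow, IsLocalization.algebraMap_mem_map_algebraMap_iff P.primeCompl] at hn
  obtain ⟨s, hs, hsx⟩ := hn
  have hD : ∀ (k : ℕ) (y : B), y ∈ I → (⇑D)^[k] y ∈ I := by
    intro k
    induction k with
    | zero => intro y hy; simpa using hy
    | succ k ih => intro y hy; rw [Function.iterate_succ_apply']; exact hI _ (ih y hy)
  have h1 := adx_iter_sub_mem x P hx n (fun z => (⇑D)^[n] z) s
  rw [(adx_iter_pow D x n).1] at h1
  have h2 : (⇑D)^[n] (x ^ n * s) ∈ P := hIP (hD n _ (by rw [mul_comm]; exact hsx))
  have h3 : (n.factorial : B) * (D x) ^ n * s ∈ P := by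
    have := P.add_mem h1 h2
    simpa using this
  have hu : IsUnit (n.factorial : B) := by
    have : (n.factorial : B) = algebraMap ℂ B (n.factorial : ℂ) := by simp
    rw [this]
    exact (IsUnit.mk0 _ (by exact_mod_cast n.factorial_ne_zero)).map _
  rcases hPp.mem_or_mem h3 with h4 | h4
  · rcases hPp.mem_or_mem h4 with h5 | h5
    · exact absurd (Ideal.eq_top_of_isUnit_mem _ h5 hu) hPp.ne_top
    · exact hPp.mem_of_pow_mem n h5
  · exact absurd h4 hs

/-- Seidenberg: a derivation of the fraction field preserving a Noetherian domain preserves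
its integral closure (characteristic zero). -/
theorem seidenberg {A K : Type} [CommRing A] [IsDomain A] [IsNoetherianRing A] [Field K]
    [Algebra A K] [IsFractionRing A K] [Algebra ℂ A] [Algebra ℂ K] [IsScalarTower ℂ A K]
    (D : Derivation ℂ K K)
    (hD : ∀ a : A, ∃ b : A, D (algebraMap A K a) = algebraMap A K b) {x : K}
    (hx : IsIntegral A x) : IsIntegral A (D x) := by
  obtain ⟨c, hc, hcx⟩ := hx.isAlmostIntegral
  have hDk : ∀ (k : ℕ) (y : K), y ∈ (algebraMap A K).range →
      (⇑D)^[k] y ∈ (algebraMap A K).range := by
    intro k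
    induction k with
    | zero => intro y hy; simpa using hy
    | succ k ih =>
      intro y hy
      rw [Function.iterate_succ_apply']
      obtain ⟨a, ha⟩ := ih y hy
      obtain ⟨b, hb⟩ := hD a
      exact ⟨b, by rw [← ha, hb]⟩
  have hgood : ∀ (k : ℕ) (P : K → K),
      (∀ i j : ℕ, (c • x ^ i) * P (c • x ^ j) ∈ (algebraMap A K).range) →
      ∀ i j : ℕ, (c • x ^ i) * (adx x)^[k] P (c • x ^ j) ∈ (algebraMap A K).range := by
    intro k
    induction k with
    | zero => intro P hP; simpa using hP
    | succ k ih =>
      intro P hP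
      rw [Function.iterate_succ_apply]
      apply ih
      intro i j
      have e : (c • x ^ i) * adx x P (c • x ^ j) =
          (c • x ^ i) * P (c • x ^ (j + 1)) - (c • x ^ (i + 1)) * P (c • x ^ j) := by
        simp only [adx, Algebra.smul_def]
        rw [show x * (algebraMap A K c * x ^ j) = algebraMap A K c * x ^ (j + 1) by ring]
        ring
      rw [e]
      exact sub_mem (hP _ _) (hP _ _)
  have hinj : Function.Injective (algebraMap A K) := IsFractionRing.injective A K
  apply IsAlmostIntegral.isIntegral
  refine ⟨c * c, mul_mem hc hc, fun n => ?_⟩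
  have h1 := hgood n (fun z => (⇑D)^[n] z)
    (fun i j => mul_mem (hcx i) (hDk n _ (hcx j))) 0 0
  rw [(adx_iter_pow D x n).1] at h1
  obtain ⟨a, ha⟩ := h1
  refine ⟨algebraMap ℂ A ((n.factorial : ℂ)⁻¹) * a, ?_⟩
  have hn : (n.factorial : K) ≠ 0 := by
    have : (n.factorial : K) = algebraMap ℂ K (n.factorial : ℂ) := by simp
    rw [this]
    exact (map_ne_zero _).2 (by exact_mod_cast n.factorial_ne_zero)
  rw [map_mul, ha, ← IsScalarTower.algebraMap_apply, map_inv₀, map_natCast]
  simp only [Algebra.smul_def, map_mul, pow_zero, mul_one]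
  field_simp

/-- The normalization of a finitely generated complex domain is a finite module. -/
theorem norm_finite {A K : Type} [CommRing A] [IsDomain A] [Algebra ℂ A]
    [Algebra.FiniteType ℂ A] [Field K] [Algebra A K] [IsFractionRing A K] :
    Module.Finite A (integralClosure A K) := by
  obtain ⟨s, g, hg, hfin⟩ := exists_finite_inj_algHom_of_fg ℂ A
  let R := MvPolynomial (Fin s) ℂ
  letI : Algebra R A := g.toRingHom.toAlgebra
  have hRA : Module.Finite R A := hfin
  letI : Algebra R K := ((algebraMap A K).comp g.toRingHom).toAlgebra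
  have : IsScalarTower R A K := IsScalarTower.of_algebraMap_eq' rfl
  have hinj : Function.Injective (algebraMap R K) :=
    (IsFractionRing.injective A K).comp hg
  have : FaithfulSMul R K := (faithfulSMul_iff_algebraMap_injective R K).2 hinj
  have : FaithfulSMul R A := (faithfulSMul_iff_algebraMap_injective R A).2 hg
  let F := FractionRing R
  letI : Algebra F K := FractionRing.liftAlgebra R K
  have : IsScalarTower R F K := FractionRing.isScalarTower_liftAlgebra R K
  have : Algebra.IsIntegral R A := inferInstance
  have : Algebra.IsAlgebraic R A := inferInstance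
  have : FiniteDimensional F K :=
    Module.Finite.of_isLocalization R A (Rₚ := F) (Sₚ := K) (nonZeroDivisors R)
  have : CharZero F := inferInstance
  letI : Algebra R (integralClosure A K) :=
    ((algebraMap A (integralClosure A K)).comp g.toRingHom).toAlgebra
  have : IsScalarTower R A (integralClosure A K) := IsScalarTower.of_algebraMap_eq' rfl
  have : IsScalarTower R (integralClosure A K) K := IsScalarTower.of_algebraMap_eq' rfl
  have : IsIntegralClosure (integralClosure A K) R K := by
    refine ⟨Subtype.val_injective, fun {x} => ⟨fun hx => ⟨⟨x, hx.tower_top⟩, rfl⟩, ?_⟩⟩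
    rintro ⟨y, rfl⟩
    exact isIntegral_trans (A := A) _ y.2
  have h := IsIntegralClosure.finite R F K (integralClosure A K)
  exact Module.Finite.of_restrictScalars_finite R A _

end Vale.Agent.P266
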