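import Mathlib

namespace Vale.Agent.P266

/-- a derivation killing a local generator `π` of a prime `p` with residue field `ℂ` vanishes -/
theorem s4_der_zero {A : Type} [CommRing A] [IsDomain A] [IsNoetherianRing A] [Algebra ℂ A]
    (p : Ideal A) [hp : p.IsPrime] (hC : ∀ f : A, ∃ c : ℂ, f - algebraMap ℂ A c ∈ p)
    (π s : A) (hπ : π ∈ p) (hs : s ∉ p) (hgen : ∀ c ∈ p, ∃ t, s * c = π * t)
    (D : Derivation ℂ A A) (hD : D π = 0) (f : A) : D f = 0 := by
  have key : ∀ n : ℕ, ∀ f : A, ∃ s' ∉ p, ∃ w : A, s' * D f = π ^ n * w := by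
    intro n
    induction n with
    | zero => intro f; exact ⟨1, (Ideal.ne_top_iff_one p).mp hp.ne_top, D f, by simp⟩
    | succ n ih =>
      intro f
      obtain ⟨c, hc⟩ := hC f
      obtain ⟨t, ht⟩ := hgen _ hc
      obtain ⟨s1, hs1, w1, hw1⟩ := ih t
      obtain ⟨s2, hs2, w2, hw2⟩ := ih s
      have k := congrArg D ht
      simp only [Derivation.leibniz, smul_eq_mul, map_sub, Derivation.map_algebraMap, hD] at k
      refine ⟨s1 * s2 * s * s, ?_, s2 * s * w1 - s1 * t * w2, ?_⟩
      · intro h
        rcases hp.mem_or_mem h with h | h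
        · rcases hp.mem_or_mem h with h | h
          · rcases hp.mem_or_mem h with h | h
            · exact hs1 h
            · exact hs2 h
          · exact hs h
        · exact hs h
      · rw [pow_succ]
        linear_combination s1 * s2 * s * k - s1 * s2 * D s * ht + π * s2 * s * hw1
          - π * s1 * t * hw2
  set R := Localization.AtPrime p
  have hmem : algebraMap A R (D f) ∈ ⨅ n : ℕ, IsLocalRing.maximalIdeal R ^ n := by
    refine Ideal.mem_iInf.mpr fun n => ?_
    obtain ⟨s', hs', w, hw⟩ := key n f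
    have hu : IsUnit (algebraMap A R s') := IsLocalization.map_units R (⟨s', hs'⟩ : p.primeCompl)
    rw [← Ideal.unit_mul_mem_iff_mem _ hu, ← map_mul, hw, map_mul, map_pow]
    exact Ideal.mul_mem_right _ _ (Ideal.pow_mem_pow
      ((IsLocalization.AtPrime.to_map_mem_maximal_iff R p π).mpr hπ) n)
  rw [Ideal.iInf_pow_eq_bot_of_isLocalRing _ (IsLocalRing.maximalIdeal.isMaximal R).ne_top,
    Ideal.mem_bot] at hmem
  exact (IsLocalization.injective R p.primeCompl_le_nonZeroDivisors) (by simpa using hmem)

theorem hartogs {A K : Type} [CommRing A] [IsDomain A] [IsNoetherianRing A] [IsIntegrallyClosed A]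
    [Algebra ℂ A] [Field K] [Algebra A K] [IsFractionRing A K] (D1 D2 : Derivation ℂ A A)
    (hJ : ∃ x y, D1 x * D2 y - D2 x * D1 y ≠ 0) (S : Set A)
    (hS : ∀ p : Ideal A, p.IsPrime → S ⊆ p → ∀ f : A, ∃ c : ℂ, f - algebraMap ℂ A c ∈ p)
    (al : K) (hal : ∀ s ∈ S, ∃ t : A, algebraMap A K s * al = algebraMap A K t) :
    ∃ t : A, al = algebraMap A K t := by
  by_contra hno
  have hinj : Function.Injective (algebraMap A K) := IsFractionRing.injective A K
  let den : K → Ideal A := fun be =>
    { carrier := {c | ∃ t : A, algebraMap A K c * be = algebraMap A K t}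
      add_mem' := by
        rintro a b ⟨t, ht⟩ ⟨u, hu⟩
        exact ⟨t + u, by rw [map_add, add_mul, ht, hu, map_add]⟩
      zero_mem' := ⟨0, by simp⟩
      smul_mem' := by
        rintro a b ⟨t, ht⟩
        exact ⟨a * t, by rw [smul_eq_mul, map_mul, mul_assoc, ht, map_mul]⟩ }
  have hden : ∀ be c, c ∈ den be ↔ ∃ t : A, algebraMap A K c * be = algebraMap A K t :=
    fun _ _ => Iff.rfl
  let F : Set (Ideal A) := {I | ∃ y : A, (¬ ∃ t : A, algebraMap A K y * al = algebraMap A K t) ∧
    I = den (algebraMap A K y * al)}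
  have hF : F.Nonempty := ⟨_, 1, by simpa using hno, rfl⟩
  obtain ⟨p, ⟨y, hy, hpy⟩, hmax⟩ := set_has_maximal_iff_noetherian.mpr
    (inferInstance : IsNoetherian A A) F hF
  set be := algebraMap A K y * al with hbe
  have hp : Ideal.IsPrime p := by
    refine ⟨?_, ?_⟩
    · intro h
      have : (1 : A) ∈ p := h ▸ Submodule.mem_top
      rw [hpy, hden] at this
      exact hy (by simpa using this)
    · intro a b hab
      by_contra hcon
      push Not at hcon
      obtain ⟨ha, hb⟩ := hcon
      apply hmax (den (algebraMap A K (b * y) * al))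
      · refine ⟨b * y, ?_, rfl⟩
        rw [hpy, hden] at hb
        rw [map_mul, mul_assoc]; exact hb
      · refine lt_of_le_of_ne ?_ ?_
        · intro c hc
          rw [hpy, hden] at hc
          obtain ⟨t, ht⟩ := hc
          refine ⟨b * t, ?_⟩
          rw [map_mul, map_mul, ← ht, hbe]; ring
        · intro h
          apply ha
          rw [h, hden]
          rw [hpy, hden] at hab
          obtain ⟨t, ht⟩ := hab
          refine ⟨t, ?_⟩
          rw [← ht, hbe, map_mul, map_mul]; ring
  have hSp : S ⊆ p := by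
    intro s hs
    obtain ⟨t, ht⟩ := hal s hs
    rw [SetLike.mem_coe, hpy, hden]
    refine ⟨y * t, ?_⟩
    rw [map_mul, ← ht, hbe]; ring
  have hC := hS p hp hSp
  obtain ⟨π, hπ, s, hs, hπs⟩ : ∃ π ∈ p, ∃ s ∉ p, algebraMap A K π * be = algebraMap A K s := by
    by_contra hcon
    push Not at hcon
    have hint : IsIntegral A be := by
      refine isIntegral_of_smul_mem_submodule (M := K)
        (Submodule.map (Algebra.linearMap A K) p) ?_ ?_ be ?_
      · obtain ⟨a, b, hb, hab⟩ := IsFractionRing.div_surjective (A := A) be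
        have hb0 : algebraMap A K b ≠ 0 :=
          IsFractionRing.to_map_ne_zero_of_mem_nonZeroDivisors hb
        have hbp : b ∈ p := by
          rw [hpy, hden]
          exact ⟨a, by rw [← hab]; field_simp⟩
        intro h
        have : algebraMap A K b ∈ Submodule.map (Algebra.linearMap A K) p := ⟨b, hbp, rfl⟩
        rw [h] at this
        exact hb0 this
      · exact Submodule.FG.map _ (IsNoetherian.noetherian p)
      · rintro _ ⟨c, hc, rfl⟩
        have hc' := hc
        rw [SetLike.mem_coe, hpy, hden] at hc'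
        obtain ⟨t, ht⟩ := hc'
        refine ⟨t, ?_, ?_⟩
        · by_contra ht'
          exact hcon c hc t ht' ht
        · simp [← ht, mul_comm]
    obtain ⟨t, ht⟩ := IsIntegrallyClosed.isIntegral_iff.mp hint
    exact hy ⟨t, ht.symm⟩
  have hgen : ∀ c ∈ p, ∃ t, s * c = π * t := by
    intro c hc
    rw [hpy, hden] at hc
    obtain ⟨t, ht⟩ := hc
    refine ⟨t, hinj ?_⟩
    rw [map_mul, map_mul, ← hπs, ← ht]; ring
  obtain ⟨x, z, hxz⟩ := hJ
  have h1 := s4_der_zero p hC π s hπ hs hgen (D2 π • D1 - D1 π • D2) (by simp [mul_comm])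
  have hx := h1 x
  have hz := h1 z
  simp only [Derivation.sub_apply, Derivation.smul_apply, smul_eq_mul] at hx hz
  have hD1 : D1 π = 0 := by
    have : D1 π * (D1 x * D2 z - D2 x * D1 z) = 0 := by
      linear_combination D1 z * hx - D1 x * hz
    exact (mul_eq_zero.mp this).resolve_right hxz
  have h2 := s4_der_zero p hC π s hπ hs hgen D1 hD1
  exact hxz (by simp [h2])

end Vale.Agent.P266
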