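import Mathlib

namespace Vale.Agent.P266

open scoped Pointwise

/-- local generators: in a regular ring of dimension `≤ 2`, a prime is locally generated by two
elements. -/
theorem s5_two_gens {A : Type} [CommRing A] [IsRegularRing A] (m : Ideal A) [m.IsPrime]
    (hdim : ringKrullDim A ≤ 2) :
    ∃ x1 ∈ m, ∃ x2 ∈ m, ∀ f ∈ m, ∃ s ∉ m, ∃ u1 u2 : A, s * f = u1 * x1 + u2 * x2 := by
  classical
  set R := Localization.AtPrime m
  have hreg : IsRegularLocalRing R := inferInstance
  have h1 : ((IsLocalRing.maximalIdeal R).spanFinrank : WithBot ℕ∞) ≤ 2 := by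
    rw [hreg.spanFinrank_maximalIdeal, IsLocalization.AtPrime.ringKrullDim_eq_height m R]
    exact le_trans (Ideal.height_le_ringKrullDim_of_ne_top (Ideal.IsPrime.ne_top inferInstance)) hdim
  have h2 : (IsLocalRing.maximalIdeal R).spanFinrank ≤ 2 := by exact_mod_cast h1
  obtain ⟨T, hT, hTs⟩ := Submodule.FG.exists_span_finset_card_eq_spanFinrank
    (IsNoetherian.noetherian (IsLocalRing.maximalIdeal R))
  have hTm : ∀ t ∈ T, t ∈ IsLocalRing.maximalIdeal R := fun t ht => by
    rw [← hTs]; exact Submodule.subset_span ht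
  obtain ⟨y1, hy1, y2, hy2, hT2⟩ : ∃ y1 ∈ IsLocalRing.maximalIdeal R,
      ∃ y2 ∈ IsLocalRing.maximalIdeal R, (T : Set R) ⊆ {y1, y2} := by
    have hc : T.card ≤ 2 := hT ▸ h2
    rcases (by omega : T.card = 0 ∨ T.card = 1 ∨ T.card = 2) with h | h | h
    · rw [Finset.card_eq_zero] at h
      exact ⟨0, zero_mem _, 0, zero_mem _, by simp [h]⟩
    · obtain ⟨a, rfl⟩ := Finset.card_eq_one.mp h
      exact ⟨a, hTm a (by simp), a, hTm a (by simp), by simp⟩
    · obtain ⟨a, b, -, rfl⟩ := Finset.card_eq_two.mp h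
      exact ⟨a, hTm a (by simp), b, hTm b (by simp), by simp⟩
  obtain ⟨⟨x1, s1⟩, rfl⟩ := IsLocalization.mk'_surjective m.primeCompl y1
  obtain ⟨⟨x2, s2⟩, rfl⟩ := IsLocalization.mk'_surjective m.primeCompl y2
  simp only at hy1 hy2 hT2
  rw [IsLocalization.AtPrime.mk'_mem_maximal_iff R m] at hy1 hy2
  refine ⟨x1, hy1, x2, hy2, fun f hf => ?_⟩
  have hf' : algebraMap A R f ∈ Ideal.map (algebraMap A R) (Ideal.span {x1, x2}) := by
    have : algebraMap A R f ∈ IsLocalRing.maximalIdeal R :=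
      (IsLocalization.AtPrime.to_map_mem_maximal_iff R m f).mpr hf
    rw [← hTs] at this
    refine (Submodule.span_le.mpr ?_ : _ ≤ Ideal.map (algebraMap A R) (Ideal.span {x1, x2})) this
    refine hT2.trans ?_
    intro z hz
    rcases hz with rfl | rfl
    · rw [IsLocalization.mk'_eq_mul_mk'_one]
      exact Ideal.mul_mem_right _ _ (Ideal.mem_map_of_mem _ (Ideal.subset_span (by simp)))
    · rw [IsLocalization.mk'_eq_mul_mk'_one]
      exact Ideal.mul_mem_right _ _ (Ideal.mem_map_of_mem _ (Ideal.subset_span (by simp)))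
  obtain ⟨s, hs, hsf⟩ := (IsLocalization.algebraMap_mem_map_algebraMap_iff m.primeCompl R _ f).mp hf'
  obtain ⟨u1, u2, hu⟩ := Ideal.mem_span_pair.mp hsf
  exact ⟨s, hs, u1, u2, hu.symm⟩

theorem not_regular {A : Type} [CommRing A] [IsDomain A] [IsNoetherianRing A] [Algebra ℂ A]
    (e : A →ₐ[ℂ] ℂ) (D1 D2 : Derivation ℂ A A) (h1 : ∀ x, e (D1 x) = 0 ∧ e (D2 x) = 0)
    (hspan : ∀ D : Derivation ℂ A A, ∃ al be : A, ∀ x, D x = al * D1 x + be * D2 x)
    (hJ : ∃ x y, D1 x * D2 y - D2 x * D1 y ≠ 0) (hdim : ringKrullDim A ≤ 2) :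
    ¬ IsRegularRing A := by
  intro hreg
  set m : Ideal A := RingHom.ker e with hm
  have hmP : m.IsPrime := RingHom.ker_isPrime e
  have hmem : ∀ x, x ∈ m ↔ e x = 0 := fun x => RingHom.mem_ker
  obtain ⟨x1, hx1, x2, hx2, hx⟩ := s5_two_gens m hdim
  let v : A → A × A := fun f => (D1 f, D2 f)
  let N : Submodule A (A × A) := Submodule.span A (Set.range v)
  let N' : Submodule A (A × A) := Submodule.span A {v x1, v x2}
  have hvN : ∀ f, v f ∈ N := fun f => Submodule.subset_span ⟨f, rfl⟩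
  have hle : N ≤ N' ⊔ m • N := by
    refine Submodule.span_le.mpr ?_
    rintro _ ⟨f, rfl⟩
    set f0 := f - algebraMap ℂ A (e f) with hf0
    have hf0m : f0 ∈ m := by rw [hmem]; simp [hf0]
    have hv0 : v f = v f0 := by simp [v, hf0]
    obtain ⟨s, hs, u1, u2, hu⟩ := hx f0 hf0m
    have hes : e s ≠ 0 := fun h => hs ((hmem s).mpr h)
    set s0 := s - algebraMap ℂ A (e s) with hs0
    have hs0m : s0 ∈ m := by rw [hmem]; simp [hs0]
    have hc : algebraMap ℂ A (e s)⁻¹ * algebraMap ℂ A (e s) = 1 := by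
      rw [← map_mul, inv_mul_cancel₀ hes, map_one]
    have k1 := congrArg D1 hu
    have k2 := congrArg D2 hu
    simp only [map_add, Derivation.leibniz, smul_eq_mul] at k1 k2
    have key : v f0 = algebraMap ℂ A (e s)⁻¹ • ((u1 • v x1 + u2 • v x2) +
        (x1 • v u1 + x2 • v u2 - f0 • v s - s0 • v f0)) := by
      have hs' : s = s0 + algebraMap ℂ A (e s) := by simp [hs0]
      ext
      · simp only [v, Prod.smul_fst, Prod.fst_add, Prod.fst_sub, smul_eq_mul]
        linear_combination (-(D1 f0)) * hc + algebraMap ℂ A (e s)⁻¹ * k1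
          - algebraMap ℂ A (e s)⁻¹ * D1 f0 * hs'
      · simp only [v, Prod.smul_snd, Prod.snd_add, Prod.snd_sub, smul_eq_mul]
        linear_combination (-(D2 f0)) * hc + algebraMap ℂ A (e s)⁻¹ * k2
          - algebraMap ℂ A (e s)⁻¹ * D2 f0 * hs'
    show v f ∈ N' ⊔ m • N
    rw [hv0, key]
    refine Submodule.smul_mem _ _ (Submodule.add_mem_sup ?_ ?_)
    · exact add_mem (Submodule.smul_mem _ _ (Submodule.subset_span (by simp)))
        (Submodule.smul_mem _ _ (Submodule.subset_span (by simp)))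
    · exact sub_mem (sub_mem (add_mem (Submodule.smul_mem_smul hx1 (hvN _))
        (Submodule.smul_mem_smul hx2 (hvN _))) (Submodule.smul_mem_smul hf0m (hvN _)))
        (Submodule.smul_mem_smul hs0m (hvN _))
  obtain ⟨r, hr1, hr⟩ := Submodule.exists_sub_one_mem_and_smul_le_of_fg_of_le_sup
    (IsNoetherian.noetherian N) le_rfl hle
  have hex : ∀ f, ∃ a b : A, r * D1 f = a * D1 x1 + b * D1 x2 ∧
      r * D2 f = a * D2 x1 + b * D2 x2 := by
    intro f
    have : r • v f ∈ N' := hr (Submodule.smul_mem_pointwise_smul _ _ _ (hvN f))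
    obtain ⟨a, b, hab⟩ := Submodule.mem_span_pair.mp this
    refine ⟨a, b, ?_, ?_⟩
    · simpa [v] using (congrArg Prod.fst hab).symm
    · simpa [v] using (congrArg Prod.snd hab).symm
  have her : e r = 1 := by
    have := (hmem _).mp hr1
    simpa [sub_eq_zero] using this
  have hr0 : r ≠ 0 := by
    rintro rfl
    simp at her
  set Δ := D1 x1 * D2 x2 - D2 x1 * D1 x2 with hΔ
  have hΔ0 : Δ ≠ 0 := by
    obtain ⟨x, y, hxy⟩ := hJ
    obtain ⟨a, b, ha1, ha2⟩ := hex x
    obtain ⟨c, d, hc1, hc2⟩ := hex y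
    intro h0
    have : r * r * (D1 x * D2 y - D2 x * D1 y) = (a * d - b * c) * Δ := by
      have e1 : r * r * (D1 x * D2 y - D2 x * D1 y) =
          (r * D1 x) * (r * D2 y) - (r * D2 x) * (r * D1 y) := by ring
      rw [e1, ha1, ha2, hc1, hc2, hΔ]; ring
    rw [h0, mul_zero] at this
    exact mul_ne_zero (mul_ne_zero hr0 hr0) hxy this
  choose α β hα using hex
  have hd : ∀ f, Δ * α f = r * (D1 f * D2 x2 - D2 f * D1 x2) := by
    intro f
    rw [hΔ]
    linear_combination (-(D2 x2)) * (hα f).1 + D1 x2 * (hα f).2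
  let dl : A →ₗ[ℂ] A :=
    { toFun := α
      map_add' := fun f g => by
        apply mul_left_cancel₀ hΔ0
        rw [mul_add, hd, hd, hd]; simp only [map_add]; ring
      map_smul' := fun c f => by
        apply mul_left_cancel₀ hΔ0
        rw [RingHom.id_apply, mul_smul_comm, hd, hd, Derivation.map_smul, Derivation.map_smul]
        simp only [Algebra.smul_def]; ring }
  let d : Derivation ℂ A A := Derivation.mk' dl (fun f g => by
    apply mul_left_cancel₀ hΔ0
    show Δ * α (f * g) = Δ * (f • α g + g • α f)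
    rw [smul_eq_mul, smul_eq_mul, mul_add, mul_left_comm Δ f, mul_left_comm Δ g, hd, hd, hd]
    simp only [Derivation.leibniz, smul_eq_mul]; ring)
  obtain ⟨al, be, hab⟩ := hspan d
  have hdx : α x1 = r := by
    apply mul_left_cancel₀ hΔ0
    rw [hd, hΔ]; ring
  have h3 : r = al * D1 x1 + be * D2 x1 := by
    rw [← hab x1]; exact hdx.symm
  have := congrArg e h3
  simp [her, (h1 x1).1, (h1 x1).2] at this

end Vale.Agent.P266
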